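import Vale.Agent.P091.T.Defs

/-!
# P091, T block: the frozen statements of the heart (architect helper126)

`HEAVY` follows from the rows `P_T1`, `P_CUT`, `P_E1`, `P_TRIV`, `P_HULL`, `P_BELL`.
-/

set_option autoImplicit false

open Finset
open Vale.Agent.P091.Spec
open Vale.Agent.P065.Ent

noncomputable section

namespace Vale.Agent.P091.T

/-- the target of the heart, integer letters -/
def HEAVYZ : Prop := ∀ C1 : ℝ, 0 ≤ C1 → ∃ C D0 : ℝ, ∀ (D : ℝ) (n : ℕ) (ι : Type) [Fintype ι]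
  (d : ZData C1 D n (bb D) ι), D0 ≤ D → ‖gain d d.p 0 0‖ ≤ C * D

/-- row T1: rounding of the letters, floor, small `D` -/
def P_T1 : Prop := HEAVYZ → HEAVY

/-- row CUT (= H1, one extraction): if the rule fails at the stage `s`, a unit and a piece are
found, the entropy of the list grows by `th / 5` -/
def P_CUT : Prop := ∃ c c' : ℝ, 0 < c ∧ 0 < c' ∧ ∀ A C1 : ℝ, 1 ≤ A → 0 ≤ C1 → ∃ D0 : ℝ,
  ∀ (D : ℝ) (n : ℕ) (ι : Type) [Fintype ι] (d : ZData C1 D n (bb D) ι)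
    (J : List (Un n (bb D))) (j a : ℕ) (Z : Finset ℕ) (s : ℕ),
    D0 ≤ D → j ≤ n → a < 2 ^ j → Z ⊆ nd n j a → (∀ k ∈ J, IsProb k.P) →
    Real.exp (-D) ≤ av n j a (cut d.p Z) → 1 ≤ s → s ≤ sm A C1 D →
    Real.exp (-(th A D s / 2)) < ubm d J (cut d.p Z) (th A D s) ((1 / 2 : ℝ) ^ s) j a →
    ∃ (k : Un n (bb D)) (Y' : Finset ℕ), Y' ⊆ Z ∧ k.Ok (ep c D) D Y' ∧
      c' * (1 / 4 : ℝ) ^ s * av n j a (cut d.p Z) ≤ av n j a (cut d.p Y') ∧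
      F J j + th A D s / 5 ≤ F (k :: J) j

/-- row E1: the gain of one epoch -/
def P_E1 : Prop := ∀ s0 A C1 c : ℝ, 0 < s0 → 1 ≤ A → 0 ≤ C1 → 0 < c → ∃ C D0 : ℝ,
  ∀ (D : ℝ) (n : ℕ) (ι : Type) [Fintype ι] (d : ZData C1 D n (bb D) ι)
    (J : List (Un n (bb D))) (j0 a0 : ℕ) (Y : Finset ℕ) (W : ℕ → ℕ → Finset ℕ),
    D0 ≤ D → Epoch d A c s0 J j0 a0 Y W →
    ‖below j0 a0 (n - 1) fun j a => ng d (cut d.p (W j a)) j a‖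
      ≤ C * (D / ll D) * ms n j0 a0 (cut d.p Y)

/-- row T8 (used in E1): the noise energy of weights of small mass -/
def P_T8 : Prop := ∀ s0 C1 : ℝ, 0 < s0 → 0 ≤ C1 → ∃ D0 : ℝ,
  ∀ (D : ℝ) (n : ℕ) (ι : Type) [Fintype ι] (d : ZData C1 D n (bb D) ι)
    (j0 a0 : ℕ) (Y : Finset ℕ) (W : ℕ → ℕ → Finset ℕ) (w : ι → ℕ → ℕ → ℝ),
    D0 ≤ D → Fam d s0 j0 a0 Y W → (∀ k j a, 0 ≤ w k j a) → (∀ k j a, w k j a ≤ 1) →
    (∀ k j a, w k j a ≠ 0 → d.js k ≤ j ∧ ∀ j', d.js k ≤ j' → j' ≤ j →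
      Real.exp (-(C1 * D)) ≤ av n j' (a / 2 ^ (j - j')) (d.a k)) →
    (∀ j a, j0 ≤ j → j < n → a / 2 ^ (j - j0) = a0 → (W j a).Nonempty →
      ∑ k, w k j a * av n j a (d.a k) ≤ Real.exp (-(D / (ll D : ℝ) ^ 2))) →
    ∑ j ∈ Ico j0 n, ∑ a ∈ Ico (a0 * 2 ^ (j - j0)) ((a0 + 1) * 2 ^ (j - j0)),
      (∑ k, w k j a * av n j a (d.a k) * ‖dZ n (bb D) (cut d.p (W j a)) (d.r k) j a‖ ^ 2)
        / 2 ^ (j - j0)
      ≤ D / (ll D : ℝ) ^ 20 * av n j0 a0 (cut d.p Y) ^ 2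

/-- row TRIV: the trivial bound, `C D` per doubling -/
def P_TRIV : Prop := ∀ C1 : ℝ, 0 ≤ C1 → ∃ C D0 : ℝ,
  ∀ (D : ℝ) (n : ℕ) (ι : Type) [Fintype ι] (d : ZData C1 D n (bb D) ι) (q : ℕ → ℝ) (j a : ℕ),
    D0 ≤ D → j ≤ n → a < 2 ^ j → (∀ i, 0 ≤ q i) → (∀ i, q i ≤ d.p i) →
    ‖gain d q j a‖ ≤ C * D * (1 + max 0 (ll D - Real.logb 2 (av n j a q))) * ms n j a q

/-- row HULL (T5 (a)): the entropy of the list is at most the relative entropy of `y` -/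
def P_HULL : Prop := ∀ c : ℝ, 0 < c → ∃ D0 : ℝ,
  ∀ (D : ℝ) (n : ℕ) (p : ℕ → ℝ) (J : List (Un n (bb D))) (j a : ℕ) (Y : Finset ℕ),
    D0 ≤ D → j ≤ n → a < 2 ^ j → Y ⊆ nd n j a → (∀ i, 0 ≤ p i) → 0 < ∑ i ∈ Y, p i →
    J.length ≤ qm D → (∀ k ∈ J, k.Ok (ep c D) D Y) →
    F J j ≤ KL n j a (cut p Y) + D / (ll D : ℝ) ^ 10

/-- row BELL: the induction over the states (with DROP inside) -/
def P_BELL : Prop := P_CUT → P_E1 → P_TRIV → P_HULL → HEAVYZ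

theorem heavy_of (h1 : P_T1) (h2 : P_CUT) (h3 : P_E1) (h4 : P_TRIV) (h5 : P_HULL)
    (h6 : P_BELL) : HEAVY := h1 (h6 h2 h3 h4 h5)

end Vale.Agent.P091.T
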