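import Vale.Agent.P091.H74.Spec
import Vale.Agent.P065.H587.Ent2

/-!
# P091, T block: definitions of the heart (architect helper126)

Everything lives in the integer model of `H74/Spec`.  All letters are elements of `ZMod N`,
`N = 2 ^ (n + b)`, acting on the leaves `i < 2 ^ n` by `ch (r * i)`.

* `ZData` : the heavy part with integer letters and with the floor of the classes;
* `Un` : a unit (law of one increment, law of one noise), `Un.Ok` : validity on a set of leaves;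
* `lawR`, `rd`, `pj`, `F` : the law of `R_J`, its rounding at level `j`, its entropy;
* `al`, `Unx`, `Bia`, `Rule` : list mass, unexplained classes, biased classes, the rule;
* `ng`, `gain` : the bilinear form at a node and below a node;
* `Fam`, `Epoch` : one epoch, a decreasing family `W` of sets of leaves.
-/

set_option autoImplicit false

open Finset
open Vale.Agent.P091.Spec
open Vale.Agent.P065.Ent

noncomputable section

namespace Vale.Agent.P091.T

/-! ## Parameters -/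

/-- number of doublings: `2 ^ l ≥ (log D)²` -/
def ll (D : ℝ) : ℕ := ⌈2 * Real.logb 2 (Real.log D)⌉₊ + 1

/-- resolution of the letters: `2 ^ b ≥ D ^ 4` -/
def bb (D : ℝ) : ℕ := ⌈4 * Real.logb 2 D⌉₊

/-- the threshold of the stage `s` -/
def th (A D : ℝ) (s : ℕ) : ℝ := A * (2 : ℝ) ^ ((s : ℝ) / 4) / ll D * D

/-- the last stage: `th A D (sm A C1 D) ≥ (C1 + 1) D` -/
def sm (A C1 D : ℝ) : ℕ := ⌈4 * Real.logb 2 ((C1 + 1) * ll D / A)⌉₊ + 1

/-- accuracy of the units -/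
def ep (c D : ℝ) : ℝ := (Real.log D) ^ (-c)

/-- maximal length of a list -/
def qm (D : ℝ) : ℕ := ll D ^ 4

/-! ## Letters, data -/

/-- the character `exp (2 π i x / 2 ^ (n + b))` -/
def ch (n b : ℕ) (x : ZMod (2 ^ (n + b))) : ℂ := ZMod.stdAddChar x

/-- the part of `p` on the set `Y` -/
def cut (p : ℕ → ℝ) (Y : Finset ℕ) (i : ℕ) : ℝ := if i ∈ Y then p i else 0

/-- average of `q(y) e(-r y)` over the node `(j, a)` -/
def BZ (n b : ℕ) (q : ℕ → ℝ) (r : ZMod (2 ^ (n + b))) (j a : ℕ) : ℂ :=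
  avC n j a fun i => (q i : ℂ) * ch n b (-(r * i))

/-- half the difference over the two children -/
def dZ (n b : ℕ) (q : ℕ → ℝ) (r : ZMod (2 ^ (n + b))) (j a : ℕ) : ℂ :=
  (BZ n b q r (j + 1) (2 * a) - BZ n b q r (j + 1) (2 * a + 1)) / 2

/-- the data of the heavy part with letters in `ZMod (2 ^ (n + b))` and with the floor -/
structure ZData (C1 D : ℝ) (n b : ℕ) (ι : Type) [Fintype ι] where
  p : ℕ → ℝ
  js : ι → ℕ
  ac : ι → ℕ
  r : ι → ZMod (2 ^ (n + b))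
  a : ι → ℕ → ℝ
  A : ι → ℕ → ℂ
  p_nonneg : ∀ i, 0 ≤ p i
  p_le : ∀ i, p i ≤ Real.exp D
  p_avg : av n 0 0 p ≤ 1
  js_le : ∀ k, js k ≤ n
  ac_lt : ∀ k, ac k < 2 ^ js k
  a_nonneg : ∀ k i, 0 ≤ a k i
  a_sum : ∀ i, ∑ k, a k i ≤ 1
  a_supp : ∀ k i, a k i ≠ 0 → i ∈ nd n (js k) (ac k)
  A_le : ∀ k i, ‖A k i‖ ≤ a k i
  alive : ∀ k i, A k i ≠ 0 → ∀ j ≤ n, av n j (anc n j i) p ≤ Real.log D ^ 2
  floor : ∀ k i, A k i ≠ 0 → ∀ j, js k ≤ j → j ≤ n →
    Real.exp (-(C1 * D)) ≤ av n j (anc n j i) (a k)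

/-! ## Units and lists -/

/-- a unit: the law `P` of an increment and the law `ρ` of a noise -/
structure Un (n b : ℕ) where
  P : ZMod (2 ^ (n + b)) → ℝ
  ρ : ZMod (2 ^ (n + b)) → ℝ

/-- product weight -/
def prw {X X' : Type*} (μ : X → ℝ) (ν : X' → ℝ) (w : X × X') : ℝ := μ w.1 * ν w.2

/-- validity of a unit on the set of leaves `Y`: `ε` accuracy, `D` the scale of entropies -/
structure Un.Ok {n b : ℕ} (k : Un n b) (ε D : ℝ) (Y : Finset ℕ) : Prop where
  P1 : IsProb k.P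
  ρ1 : IsProb k.ρ
  supp : ((univ.filter fun r => k.P r ≠ 0).card : ℝ) ≤ Real.exp (16 * D)
  coh : ∑ r, ∑ t, k.P r * k.ρ t * ‖1 - ch n b (r * t)‖ ^ 2 ≤ ε
  info : ∀ lam : ZMod (2 ^ (n + b)) → ℝ, IsProb lam →
    (∀ y, lam y ≠ 0 → ∃ i ∈ Y, (i : ZMod (2 ^ (n + b))) = y) →
    I (prw lam k.ρ) (fun w => w.1) (fun w => w.1 + w.2) (fun _ => ()) ≤ ε * D

/-- the law of `R_J`, the sum of one increment of every unit -/
def lawR {n b : ℕ} : List (Un n b) → ZMod (2 ^ (n + b)) → ℝ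
  | [], r => if r = 0 then 1 else 0
  | k :: J, r => ∑ s, k.P s * lawR J (r - s)

/-- rounding to the level `j` -/
def rd (n b j : ℕ) (r : ZMod (2 ^ (n + b))) : ZMod (2 ^ (n + b - j)) := ((r.val / 2 ^ j : ℕ) : _)

/-- the law of `R_J` rounded to the level `j` -/
def pj {n b : ℕ} (J : List (Un n b)) (j : ℕ) (κ : ZMod (2 ^ (n + b - j))) : ℝ :=
  Pr (lawR J) (rd n b j) κ

/-- the entropy of `R_J` rounded to the level `j` -/
def F {n b : ℕ} (J : List (Un n b)) (j : ℕ) : ℝ := H (lawR J) (rd n b j)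

/-! ## Masses, relative entropy -/

/-- the mass of `q` in the node `(j, a)`, normalised by `2 ^ n` -/
def ms (n j a : ℕ) (q : ℕ → ℝ) : ℝ := (∑ i ∈ nd n j a, q i) / 2 ^ n

/-- relative entropy of `q` (normalised) with respect to the uniform law of the node -/
def KL (n j a : ℕ) (q : ℕ → ℝ) : ℝ :=
  ∑ i ∈ nd n j a, q i / (∑ i' ∈ nd n j a, q i') *
    Real.log (q i * 2 ^ (n - j) / ∑ i' ∈ nd n j a, q i')

/-! ## The classes at a node -/

section cls
variable {C1 D : ℝ} {n b : ℕ} {ι : Type} [Fintype ι] (d : ZData C1 D n b ι)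

/-- mass of the list element `κ` in the node `(j, a)` -/
def al (J : List (Un n b)) (j a : ℕ) (κ : ZMod (2 ^ (n + b - j))) : ℝ :=
  ∑ k, av n j a (d.a k) * pj J j (κ - rd n b j (d.r k))

open Classical in
/-- the explained mass of the class `k` at the node `(j, a)`, threshold `θ` -/
def xp (J : List (Un n b)) (θ : ℝ) (j a : ℕ) (k : ι) : ℝ :=
  ∑ s : ZMod (2 ^ (n + b - j)),
    if pj J j s ≤ Real.exp θ * al d J j a (rd n b j (d.r k) + s) then pj J j s else 0

/-- the class `k` is unexplained -/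
def Unx (J : List (Un n b)) (θ : ℝ) (j a : ℕ) (k : ι) : Prop := xp d J θ j a k < 3 / 8

/-- the class `k` is `δ`-biased for `q` at the node -/
def Bia (q : ℕ → ℝ) (δ : ℝ) (j a : ℕ) (k : ι) : Prop :=
  δ * av n j a q ≤ ‖BZ n b q (d.r k) j a‖

open Classical in
/-- mass of the unexplained and biased classes -/
def ubm (J : List (Un n b)) (q : ℕ → ℝ) (θ δ : ℝ) (j a : ℕ) : ℝ :=
  ∑ k, if Unx d J θ j a k ∧ Bia d q δ j a k then av n j a (d.a k) else 0

/-- the rule: for every stage `s` the unexplained `2 ^ (-s)`-biased classes have mass at most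
`exp (-th s / 2)` -/
def Rule (A : ℝ) (J : List (Un n b)) (q : ℕ → ℝ) (j a : ℕ) : Prop :=
  ∀ s, 1 ≤ s → s ≤ sm A C1 D →
    ubm d J q (th A D s) ((1 / 2 : ℝ) ^ s) j a ≤ Real.exp (-(th A D s / 2))

/-! ## The bilinear form -/

/-- contribution of the node `(j, a)`, y-weight `q` -/
def ng (q : ℕ → ℝ) (j a : ℕ) : ℂ :=
  ∑ k, if d.js k + 3 ≤ j then
    (∑ i ∈ nd n j a, d.A k i * sg n j i) / 2 ^ n * dZ n b q (d.r k) j a else 0

/-- sum of `f` over the nodes below `(j0, a0)`, levels `< j1` -/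
def below (j0 a0 j1 : ℕ) (f : ℕ → ℕ → ℂ) : ℂ :=
  ∑ j ∈ Ico j0 j1, ∑ a ∈ Ico (a0 * 2 ^ (j - j0)) ((a0 + 1) * 2 ^ (j - j0)), f j a

/-- the form below the node `(j, a)` -/
def gain (q : ℕ → ℝ) (j a : ℕ) : ℂ := below j a (n - 1) (ng d q)

/-! ## Epochs -/

/-- the arrival set at a node of an epoch with departure sets `W`; root `(j0, a0)` with set `Y` -/
def arr (n j0 : ℕ) (Y : Finset ℕ) (W : ℕ → ℕ → Finset ℕ) (j a : ℕ) : Finset ℕ :=
  if j ≤ j0 then Y else W (j - 1) (a / 2) ∩ nd n j a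

/-- A decreasing family of sets below `(j0, a0)`: `W j a` = set of leaves with which the process
leaves the node (empty if the process has stopped).  Densities relative to the root are in
`[s0, 2]`; a nontrivial cut removes at least the fraction `l⁻¹⁰`. -/
structure Fam (s0 : ℝ) (j0 a0 : ℕ) (Y : Finset ℕ) (W : ℕ → ℕ → Finset ℕ) : Prop where
  j0_le : j0 ≤ n
  a0_lt : a0 < 2 ^ j0
  Y_sub : Y ⊆ nd n j0 a0
  dens : Real.exp (-D) ≤ av n j0 a0 (cut d.p Y)
  W_sub : ∀ j a, j0 ≤ j → j ≤ n → a / 2 ^ (j - j0) = a0 → W j a ⊆ arr n j0 Y W j a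
  W_le : ∀ j a, j0 ≤ j → j ≤ n → a / 2 ^ (j - j0) = a0 → (W j a).Nonempty →
    av n j a (cut d.p (arr n j0 Y W j a)) ≤ 2 * av n j0 a0 (cut d.p Y)
  W_ge : ∀ j a, j0 ≤ j → j ≤ n → a / 2 ^ (j - j0) = a0 → (W j a).Nonempty →
    s0 * av n j0 a0 (cut d.p Y) ≤ av n j a (cut d.p (W j a))
  W_cut : ∀ j a, j0 ≤ j → j ≤ n → a / 2 ^ (j - j0) = a0 → (W j a).Nonempty →
    W j a = arr n j0 Y W j a ∨
      av n j a (cut d.p (W j a)) ≤ (1 - ((ll D : ℝ) ^ 10)⁻¹) * av n j a (cut d.p (arr n j0 Y W j a))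

/-- An epoch with the list `J`: the rule holds at every node where the process is alive. -/
structure Epoch (A c s0 : ℝ) (J : List (Un n b)) (j0 a0 : ℕ) (Y : Finset ℕ)
    (W : ℕ → ℕ → Finset ℕ) : Prop extends Fam d s0 j0 a0 Y W where
  len : J.length ≤ qm D
  ok : ∀ k ∈ J, k.Ok (ep c D) D Y
  rule : ∀ j a, j0 ≤ j → j ≤ n → a / 2 ^ (j - j0) = a0 → (W j a).Nonempty →
    Rule d A J (cut d.p (W j a)) j a

end cls

end Vale.Agent.P091.T
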