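import Vale.Agent.P091.T.Props
import Vale.Agent.P091.T.H350.Bridge
import Vale.Agent.P091.T.H587.Leaf

/-!
# P091, T block: the tree below a node `(j0, a0)` (architect helper126)

Relative list tree: `v : Node` is the node `(j0 + |v|, ia a0 v)` of the integer model; a list `x`
of length `n - j0` is the leaf `ia a0 x`.
-/

set_option autoImplicit false

open Finset
open Vale.Agent.P091.Spec Vale.Agent.P091.H413
open Vale.Agent.P091.T.H350 Vale.Agent.P091.T.H587

noncomputable section

namespace Vale.Agent.P091.T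

/-- index of the node `v` of the tree below `(j0, a0)` -/
def ia (a0 : ℕ) (v : Node) : ℕ := a0 * 2 ^ v.length + ix v

@[simp] theorem ia_nil (a0 : ℕ) : ia a0 [] = a0 := by simp [ia]

theorem ia_true (a0 : ℕ) (v : Node) : ia a0 (true :: v) = 2 * ia a0 v := by
  unfold ia
  rw [List.length_cons, ix_true, pow_succ]
  ring

theorem ia_false (a0 : ℕ) (v : Node) : ia a0 (false :: v) = 2 * ia a0 v + 1 := by
  unfold ia
  rw [List.length_cons, ix_false, pow_succ]
  ring

theorem ia_div_two (a0 : ℕ) (c : Bool) (v : Node) : ia a0 (c :: v) / 2 = ia a0 v := by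
  cases c
  · rw [ia_false]; omega
  · rw [ia_true]; omega

theorem ia_append (a0 : ℕ) (w v : Node) : ia a0 (w ++ v) / 2 ^ w.length = ia a0 v := by
  induction w with
  | nil => simp
  | cons c w ih =>
    rw [List.cons_append, List.length_cons, pow_succ', ← Nat.div_div_eq_div_mul, ia_div_two, ih]

theorem ia_root (a0 : ℕ) (v : Node) : ia a0 v / 2 ^ v.length = a0 := by
  have := ia_append a0 v []
  rwa [List.append_nil, ia_nil] at this

/-- averages over the leaves below a node of the relative tree -/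
theorem Lf_ia {n j0 a0 : ℕ} (F : ℕ → ℝ) (m : ℕ) {v : Node} (hv : j0 + v.length + m = n) :
    Lf m (fun x => F (ia a0 x)) v = av n (j0 + v.length) (ia a0 v) F := by
  induction m generalizing v with
  | zero =>
    rw [show j0 + v.length = n by omega, av_leaf]
    rfl
  | succ m ih =>
    have h1 := ih (v := true :: v) (by simp only [List.length_cons]; omega)
    have h2 := ih (v := false :: v) (by simp only [List.length_cons]; omega)
    simp only [Lf]
    rw [h1, h2, av_mart (n := n) (j := j0 + v.length) (by omega) (ia a0 v) F, ia_true, ia_false,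
      List.length_cons, List.length_cons, add_assoc]

theorem Lc_ia {n j0 a0 : ℕ} (F : ℕ → ℂ) (m : ℕ) {v : Node} (hv : j0 + v.length + m = n) :
    Lc m (fun x => F (ia a0 x)) v = avC n (j0 + v.length) (ia a0 v) F := by
  induction m generalizing v with
  | zero =>
    rw [show j0 + v.length = n by omega, avC_leaf]
    rfl
  | succ m ih =>
    have h1 := ih (v := true :: v) (by simp only [List.length_cons]; omega)
    have h2 := ih (v := false :: v) (by simp only [List.length_cons]; omega)
    simp only [Lc]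
    rw [h1, h2, avC_mart (n := n) (j := j0 + v.length) (by omega) (ia a0 v) F, ia_true, ia_false,
      List.length_cons, List.length_cons, add_assoc]

/-- the leaves of the relative tree lie in the root -/
theorem ia_mem {n j0 a0 : ℕ} {x : Node} (hx : j0 + x.length = n) : ia a0 x ∈ nd n j0 a0 := by
  rw [mem_nd]
  unfold anc
  rw [show n - j0 = x.length by omega, ia_root]

/-- a level of the relative tree -/
theorem LC_ia (m : ℕ) (a0 : ℕ) (F : ℕ → ℕ → ℂ) (j0 : ℕ) (v : Node) :
    LC m (fun w => F (j0 + w.length) (ia a0 w)) v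
      = (∑ c ∈ range (2 ^ m), F (j0 + v.length + m) (2 ^ m * ia a0 v + c)) / 2 ^ m := by
  induction m generalizing v with
  | zero => simp [LC]
  | succ m ih =>
    have e1 : LC (m + 1) (fun w => F (j0 + w.length) (ia a0 w)) v
        = (LC m (fun w => F (j0 + w.length) (ia a0 w)) (true :: v)
            + LC m (fun w => F (j0 + w.length) (ia a0 w)) (false :: v)) / 2 := rfl
    rw [e1, ih, ih, List.length_cons, List.length_cons, ia_true, ia_false]
    have e2 : (2 : ℕ) ^ (m + 1) = 2 ^ m + 2 ^ m := by rw [pow_succ]; ring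
    rw [e2, sum_range_add]
    have e3 : ∀ c, F (j0 + (v.length + 1) + m) (2 ^ m * (2 * ia a0 v) + c)
        = F (j0 + v.length + (m + 1)) ((2 ^ m + 2 ^ m) * ia a0 v + c) := by
      intro c
      congr 1 <;> ring
    have e4 : ∀ c, F (j0 + (v.length + 1) + m) (2 ^ m * (2 * ia a0 v + 1) + c)
        = F (j0 + v.length + (m + 1)) ((2 ^ m + 2 ^ m) * ia a0 v + (2 ^ m + c)) := by
      intro c
      congr 1 <;> ring
    simp_rw [e3, e4]
    rw [pow_succ]
    ring

/-- the sum over the nodes below `(j0, a0)` -/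
theorem below_eq (j0 a0 m : ℕ) (f : ℕ → ℕ → ℂ) :
    below j0 a0 (j0 + m) f
      = SC m (fun v => 2 ^ v.length * f (j0 + v.length) (ia a0 v)) [] := by
  rw [SC_eq_sum]
  unfold below
  rw [Finset.sum_Ico_eq_sum_range]
  rw [Nat.add_sub_cancel_left]
  refine sum_congr rfl fun i _ => ?_
  have h := LC_ia i a0 (fun j a => (2 : ℂ) ^ (j - j0) * f j a) j0 []
  simp only [Nat.add_sub_cancel_left] at h
  rw [h]
  simp only [List.length_nil, ia_nil, add_zero]
  have e0 : j0 + i - j0 = i := by omega
  simp only [e0]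
  rw [← mul_sum, mul_div_cancel_left₀ _ (pow_ne_zero i (two_ne_zero (α := ℂ)))]
  rw [Finset.sum_Ico_eq_sum_range]
  have e : (a0 + 1) * 2 ^ i - a0 * 2 ^ i = 2 ^ i := by
    rw [add_mul, one_mul, Nat.add_sub_cancel_left]
  rw [e]
  refine sum_congr rfl fun c _ => ?_
  rw [mul_comm a0]

/-- the real version -/
theorem Lf_ia_level (m : ℕ) (a0 : ℕ) (F : ℕ → ℕ → ℝ) (j0 : ℕ) (v : Node) :
    Lf m (fun w => F (j0 + w.length) (ia a0 w)) v
      = (∑ c ∈ range (2 ^ m), F (j0 + v.length + m) (2 ^ m * ia a0 v + c)) / 2 ^ m := by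
  induction m generalizing v with
  | zero => simp [Lf]
  | succ m ih =>
    have e1 : Lf (m + 1) (fun w => F (j0 + w.length) (ia a0 w)) v
        = (Lf m (fun w => F (j0 + w.length) (ia a0 w)) (true :: v)
            + Lf m (fun w => F (j0 + w.length) (ia a0 w)) (false :: v)) / 2 := rfl
    rw [e1, ih, ih, List.length_cons, List.length_cons, ia_true, ia_false]
    have e2 : (2 : ℕ) ^ (m + 1) = 2 ^ m + 2 ^ m := by rw [pow_succ]; ring
    rw [e2, sum_range_add]
    have e3 : ∀ c, F (j0 + (v.length + 1) + m) (2 ^ m * (2 * ia a0 v) + c)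
        = F (j0 + v.length + (m + 1)) ((2 ^ m + 2 ^ m) * ia a0 v + c) := by
      intro c
      congr 1 <;> ring
    have e4 : ∀ c, F (j0 + (v.length + 1) + m) (2 ^ m * (2 * ia a0 v + 1) + c)
        = F (j0 + v.length + (m + 1)) ((2 ^ m + 2 ^ m) * ia a0 v + (2 ^ m + c)) := by
      intro c
      congr 1 <;> ring
    simp_rw [e3, e4]
    rw [pow_succ]
    ring

theorem sum_below_eq (j0 a0 m : ℕ) (f : ℕ → ℕ → ℝ) :
    ∑ j ∈ Ico j0 (j0 + m), ∑ a ∈ Ico (a0 * 2 ^ (j - j0)) ((a0 + 1) * 2 ^ (j - j0)),
      f j a / 2 ^ (j - j0) = S m (fun v => f (j0 + v.length) (ia a0 v)) [] := by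
  rw [S_eq_sum, Finset.sum_Ico_eq_sum_range, Nat.add_sub_cancel_left]
  refine sum_congr rfl fun i _ => ?_
  rw [Lf_ia_level]
  simp only [Nat.add_sub_cancel_left, List.length_nil, ia_nil, add_zero]
  rw [Finset.sum_Ico_eq_sum_range, sum_div]
  have e : (a0 + 1) * 2 ^ i - a0 * 2 ^ i = 2 ^ i := by
    rw [add_mul, one_mul, Nat.add_sub_cancel_left]
  rw [e]
  refine sum_congr rfl fun c _ => ?_
  rw [mul_comm a0]

end Vale.Agent.P091.T
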